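import Vale.Agent.P088.H79.FL1

/-!
# P088, data on a patch: zero Cauchy data from the weak equation (row P_FL), the proof
-/

open MeasureTheory Set Filter Topology
open scoped ContDiff Matrix

noncomputable section

namespace Vale.Agent.P088.H79

open Vale.Agent.P088.LR Vale.Agent.P088.LR.B Vale.Agent.P088.LR.U Vale.Agent.P088.LR.P

variable {n N : ℕ}

theorem cont_cd (A : Cn n N) (hA : SmU A) (w : V n → Fin N → ℂ) (hw : ContDiff ℝ ∞ w)
    (i : Fin n) : Continuous (cd A i w) := by
  have h1 : Continuous (pd i w) := (hw.continuous_fderiv (by simp)).clm_apply continuous_const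
  have h2 : Continuous (A i) := continuous_matrix fun a b => (hA.1 i a b).continuous
  exact h1.add (h2.matrix_mulVec hw.continuous)

/-- `∂_j (φ e)`. -/
theorem pd_smul (φ : V n → ℝ) (hφ : ContDiff ℝ ∞ φ) (e : Fin N → ℂ) (j : Fin n) (x : V n) :
    pd j (fun y => φ y • e) x = pd j φ x • e := by
  unfold pd
  rw [fderiv_smul_const (hφ.differentiable (by simp) x)]
  rfl

theorem cd_smul (A : Cn n N) (φ : V n → ℝ) (hφ : ContDiff ℝ ∞ φ) (e : Fin N → ℂ) (j : Fin n)
    (x : V n) : cd A j (fun y => φ y • e) x = pd j φ x • e + φ x • (A j x *ᵥ e) := by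
  unfold cd
  rw [pd_smul φ hφ, Matrix.mulVec_smul]

/-- **Row P_FL.** -/
theorem rowFL : RowFL := by
  intro n N ρ hρ s A hs hpos hA w hw G hG h0 hweak p hpG hp
  have hscont : ∀ i j, Continuous fun x => s x i j := fun i j => (hs i j).continuous
  have hAc : ∀ j, Continuous (A j) := fun j =>
    continuous_matrix fun a b => (hA.1 j a b).continuous
  -- the normal component of the flux
  have key : ∀ l : Fin N, ∑ j, (∑ i, (s p i j : ℂ) * cd A i w p l) * ((pd j ρ p : ℝ) : ℂ) = 0 := by
    intro l
    set e : Fin N → ℂ := Pi.single l 1 with he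
    set Xc : Fin n → V n → ℂ := fun j x => ∑ i, (s x i j : ℂ) * cd A i w x l with hXc
    set cc : V n → ℂ := fun x => ∑ i, ∑ j, (s x i j : ℂ) *
      (cd A i w x ⬝ᵥ star (A j x *ᵥ e)) with hcc
    have hXcc : ∀ j, Continuous (Xc j) := fun j => continuous_finsetSum _ fun i _ =>
      (Complex.continuous_ofReal.comp (hscont i j)).mul
        ((continuous_apply l).comp (cont_cd A hA w hw i))
    have hccc : Continuous cc := continuous_finsetSum _ fun i _ =>
      continuous_finsetSum _ fun j _ =>
      (Complex.continuous_ofReal.comp (hscont i j)).mul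
        ((cont_cd A hA w hw i).dotProduct ((hAc j).matrix_mulVec continuous_const).star)
    have hint : ∀ φ : V n → ℝ, ContDiff ℝ ∞ φ → HasCompactSupport φ → tsupport φ ⊆ G →
        ∫ x in Om ρ, (∑ j, Xc j x * ((pd j φ x : ℝ) : ℂ) + (φ x : ℂ) * cc x) = 0 := by
      intro φ hφ hφc hφs
      have h1 := hweak (fun y => φ y • e) (hφ.smul contDiff_const) ((closure_mono fun x hx => by
        rw [Function.mem_support] at hx ⊢
        exact fun h => hx (by rw [h, zero_smul])).trans hφs)
      rw [← h1]
      unfold ea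
      congr 1
      funext x
      simp only [cd_smul A φ hφ]
      have h2 : ∀ i j : Fin n, cd A i w x ⬝ᵥ star (pd j φ x • e + φ x • (A j x *ᵥ e)) =
          ((pd j φ x : ℝ) : ℂ) * cd A i w x l + (φ x : ℂ) * (cd A i w x ⬝ᵥ star (A j x *ᵥ e)) := by
        intro i j
        rw [star_add, star_smul, star_smul, star_trivial (pd j φ x), star_trivial (φ x),
          dotProduct_add,
          dotProduct_smul, dotProduct_smul, Complex.real_smul, Complex.real_smul]
        congr 2
        rw [he, ← Pi.single_star, star_one, dotProduct_single, mul_one]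
      simp only [h2, mul_add, Finset.sum_add_distrib, hXc, hcc, Finset.mul_sum, Finset.sum_mul]
      congr 1
      · rw [Finset.sum_comm]
        exact Finset.sum_congr rfl fun i _ => Finset.sum_congr rfl fun j _ => by ring
      · exact Finset.sum_congr rfl fun i _ => Finset.sum_congr rfl fun j _ => by ring
    have hcont : ∀ φ : V n → ℝ, ContDiff ℝ ∞ φ →
        Continuous fun x => ∑ j, Xc j x * ((pd j φ x : ℝ) : ℂ) + (φ x : ℂ) * cc x := fun φ hφ =>
      (continuous_finsetSum _ fun j _ => (hXcc j).mul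
        (Complex.continuous_ofReal.comp (H924.cpd hφ j).continuous)).add
        ((Complex.continuous_ofReal.comp hφ.continuous).mul hccc)
    have hcpt : IsCompact {x : V n | 0 ≤ ρ x} :=
      Metric.isCompact_of_isClosed_isBounded (isClosed_le continuous_const hρ.sm.continuous) hρ.bd
    have hI : ∀ φ : V n → ℝ, ContDiff ℝ ∞ φ →
        IntegrableOn (fun x => ∑ j, Xc j x * ((pd j φ x : ℝ) : ℂ) + (φ x : ℂ) * cc x) (Om ρ) :=
      fun φ hφ => ((hcont φ hφ).continuousOn.integrableOn_compact hcpt).mono_set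
        fun x (hx : 0 < ρ x) => hx.le
    have hre : fderiv ℝ ρ p (fun j => (Xc j p).re) = 0 := by
      refine nrm ρ hρ G hG (fun x j => (Xc j x).re)
        (continuous_pi fun j => Complex.continuous_re.comp (hXcc j)) (fun x => (cc x).re)
        (Complex.continuous_re.comp hccc) p hp hpG fun φ hφ hφc hφs => ?_
      have h1 := congrArg Complex.re (hint φ hφ hφc hφs)
      have h2 := Complex.reCLM.integral_comp_comm (hI φ hφ)
      rw [Complex.reCLM_apply, h1, Complex.zero_re] at h2
      rw [← h2]
      congr 1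
      funext x
      have h5 : (∑ j, Xc j x * ((pd j φ x : ℝ) : ℂ)).re = ∑ j, (Xc j x).re * pd j φ x := by
        rw [Complex.re_sum]
        exact Finset.sum_congr rfl fun j _ => Complex.re_mul_ofReal _ _
      rw [← H924.sum_pd, Complex.reCLM_apply, Complex.add_re, h5, Complex.re_ofReal_mul]
    have him : fderiv ℝ ρ p (fun j => (Xc j p).im) = 0 := by
      refine nrm ρ hρ G hG (fun x j => (Xc j x).im)
        (continuous_pi fun j => Complex.continuous_im.comp (hXcc j)) (fun x => (cc x).im)
        (Complex.continuous_im.comp hccc) p hp hpG fun φ hφ hφc hφs => ?_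
      have h1 := congrArg Complex.im (hint φ hφ hφc hφs)
      have h2 := Complex.imCLM.integral_comp_comm (hI φ hφ)
      rw [Complex.imCLM_apply, h1, Complex.zero_im] at h2
      rw [← h2]
      congr 1
      funext x
      have h5 : (∑ j, Xc j x * ((pd j φ x : ℝ) : ℂ)).im = ∑ j, (Xc j x).im * pd j φ x := by
        rw [Complex.im_sum]
        exact Finset.sum_congr rfl fun j _ => Complex.im_mul_ofReal _ _
      rw [← H924.sum_pd, Complex.imCLM_apply, Complex.add_im, h5, Complex.im_ofReal_mul]
    rw [← H924.sum_pd] at hre him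
    have h3 : ∑ j, Xc j p * ((pd j ρ p : ℝ) : ℂ) = 0 := by
      apply Complex.ext
      · rw [Complex.re_sum, Complex.zero_re, ← hre]
        exact Finset.sum_congr rfl fun j _ => Complex.re_mul_ofReal _ _
      · rw [Complex.im_sum, Complex.zero_im, ← him]
        exact Finset.sum_congr rfl fun j _ => Complex.im_mul_ofReal _ _
    exact h3
  -- the derivative of `w` is a multiple of `dρ`
  have hwc : ∀ l, ContDiff ℝ ∞ fun x => w x l := fun l => contDiff_pi.1 hw l
  have hmul : ∀ l : Fin N, ∃ a : ℂ, ∀ i, pd i w p l = ((pd i ρ p : ℝ) : ℂ) * a := by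
    intro l
    obtain ⟨a, ha⟩ := der_mul ρ hρ.sm hρ.nz G hG (fun x => (w x l).re)
      (Complex.reCLM.contDiff.comp (hwc l)) (fun x hx hx0 => by simp [h0 x hx hx0]) p hp hpG
    obtain ⟨b, hb⟩ := der_mul ρ hρ.sm hρ.nz G hG (fun x => (w x l).im)
      (Complex.imCLM.contDiff.comp (hwc l)) (fun x hx hx0 => by simp [h0 x hx hx0]) p hp hpG
    have hd : HasFDerivAt w (fderiv ℝ w p) p := (hw.differentiable (by simp) p).hasFDerivAt
    have hdl : HasFDerivAt (fun x => w x l)
        ((ContinuousLinearMap.proj (R := ℝ) (φ := fun _ : Fin N => ℂ) l).comp (fderiv ℝ w p)) p :=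
      (ContinuousLinearMap.proj (R := ℝ) (φ := fun _ : Fin N => ℂ) l).hasFDerivAt.comp p hd
    have hr := (Complex.reCLM.hasFDerivAt.comp p hdl).fderiv
    have hi := (Complex.imCLM.hasFDerivAt.comp p hdl).fderiv
    refine ⟨⟨a, b⟩, fun i => ?_⟩
    have hr2 : (pd i w p l).re = a * pd i ρ p := by
      have h1 := congrArg (fun L : V n →L[ℝ] ℝ => L (Pi.single i 1)) (hr.symm.trans ha)
      exact h1
    have hi2 : (pd i w p l).im = b * pd i ρ p := by
      have h1 := congrArg (fun L : V n →L[ℝ] ℝ => L (Pi.single i 1)) (hi.symm.trans hb)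
      exact h1
    apply Complex.ext
    · rw [hr2, Complex.re_ofReal_mul, mul_comm]
    · rw [hi2, Complex.im_ofReal_mul, mul_comm]
  have hw0 : w p = 0 := h0 p hpG hp
  have hcd : ∀ i, cd A i w p = pd i w p := fun i => by
    unfold cd
    rw [hw0, Matrix.mulVec_zero, add_zero]
  intro i
  funext l
  obtain ⟨a, ha⟩ := hmul l
  have hk := key l
  simp only [hcd, ha] at hk
  have hq : ∑ j, (∑ i, (s p i j : ℂ) * (((pd i ρ p : ℝ) : ℂ) * a)) * ((pd j ρ p : ℝ) : ℂ) =
      ((∑ i, ∑ j, s p i j * pd i ρ p * pd j ρ p : ℝ) : ℂ) * a := by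
    push_cast
    simp only [Finset.sum_mul]
    rw [Finset.sum_comm]
    exact Finset.sum_congr rfl fun i _ => Finset.sum_congr rfl fun j _ => by ring
  rw [hq] at hk
  have hv : (fun j => pd j ρ p) ≠ (0 : V n) := by
    intro hv
    apply hρ.nz p hp
    ext v
    rw [← H924.sum_pd ρ p v]
    refine Finset.sum_eq_zero fun j _ => ?_
    have : pd j ρ p = 0 := congrFun hv j
    rw [this, mul_zero]
  have hpos1 : 0 < ∑ i, ∑ j, s p i j * pd i ρ p * pd j ρ p := by
    have h1 := (hpos p).dotProduct_mulVec_pos hv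
    have h2 : star (fun j => pd j ρ p) ⬝ᵥ s p *ᵥ (fun j => pd j ρ p) =
        ∑ i, ∑ j, s p i j * pd i ρ p * pd j ρ p := by
      simp only [dotProduct, Matrix.mulVec, Finset.mul_sum, Pi.star_apply, star_trivial]
      exact Finset.sum_congr rfl fun i _ => Finset.sum_congr rfl fun j _ => by ring
    rwa [h2] at h1
  have ha0 : a = 0 := by
    rcases mul_eq_zero.1 hk with h1 | h1
    · exact absurd (Complex.ofReal_eq_zero.1 h1) hpos1.ne'
    · exact h1
  rw [ha i, ha0, mul_zero]
  rfl

end Vale.Agent.P088.H79
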