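import Vale.Agent.P088.H924.P.Defs
import Vale.Agent.P088.H924.BDivx
import Vale.Agent.P088.H641.BHad

/-!
# P088, data on a patch: zero Cauchy data from the weak equation (row P_FL)
-/

open MeasureTheory Set Filter Topology
open scoped ContDiff Matrix

noncomputable section

namespace Vale.Agent.P088.H79

open Vale.Agent.P088.LR Vale.Agent.P088.LR.B Vale.Agent.P088.LR.U Vale.Agent.P088.LR.P

variable {n N : ℕ}

/-- The weak equation near a boundary point, blown up. -/
theorem blowG (ρ : V n → ℝ) (hρ : SDom ρ) (G : Set (V n)) (hG : IsOpen G) (X : V n → V n)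
    (hX : Continuous X) (c : V n → ℝ) (hcc : Continuous c) (p : V n) (hp : ρ p = 0) (hpG : p ∈ G)
    (h : ∀ φ : V n → ℝ, ContDiff ℝ ∞ φ → HasCompactSupport φ → tsupport φ ⊆ G →
      ∫ x in Om ρ, (fderiv ℝ φ x (X x) + φ x * c x) = 0)
    (φ : V n → ℝ) (hφ : ContDiff ℝ ∞ φ) (hφc : HasCompactSupport φ) :
    ∫ y in {y | 0 < fderiv ℝ ρ p y}, fderiv ℝ φ y (X p) = 0 := by
  have hc : Continuous ρ := hρ.sm.continuous
  have hOm : IsOpen (Om ρ) := isOpen_lt continuous_const hc
  have hlc : Continuous (fderiv ℝ ρ p) := (fderiv ℝ ρ p).continuous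
  have hLo : IsOpen {y : V n | 0 < fderiv ℝ ρ p y} := isOpen_lt continuous_const hlc
  have hdc : Continuous (fderiv ℝ φ) := hφ.continuous_fderiv (by simp)
  obtain ⟨R, hR⟩ := (hφc.isCompact.isBounded).subset_closedBall (0 : V n)
  set R' : ℝ := max R 1 with hR'
  have hR1 : 0 < R' := lt_of_lt_of_le one_pos (le_max_right _ _)
  have hsup : ∀ y, φ y ≠ 0 → ‖y‖ ≤ R' := fun y hy => by
    have := hR (subset_tsupport _ (Function.mem_support.2 hy))
    rw [mem_closedBall_zero_iff] at this
    exact this.trans (le_max_left _ _)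
  have hsup1 : ∀ y, R' < ‖y‖ → φ y = 0 := fun y hy => by
    by_contra hne
    exact absurd (hsup y hne) (not_le.2 hy)
  have hsup2 : ∀ y, R' < ‖y‖ → fderiv ℝ φ y = 0 := fun y hy => by
    by_contra hne
    have := hR (tsupport_fderiv_subset ℝ (subset_tsupport _ (Function.mem_support.2 hne)))
    rw [mem_closedBall_zero_iff] at this
    exact absurd (this.trans (le_max_left _ _)) (not_le.2 hy)
  obtain ⟨C, hC⟩ := (isCompact_closedBall p R').exists_bound_of_continuousOn hX.continuousOn
  obtain ⟨C2, hC2⟩ := (isCompact_closedBall p R').exists_bound_of_continuousOn hcc.continuousOn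
  set F : ℝ → V n → ℝ := fun e y =>
    {y : V n | 0 < ρ (p + e • y)}.indicator (fun y => fderiv ℝ φ y (X (p + e • y)) +
      e * φ y * c (p + e • y)) y with hF
  have hz : ∀ᶠ e : ℝ in 𝓝[>] 0, ∫ y, F e y = 0 := by
    obtain ⟨d, hd, hd2⟩ := Metric.isOpen_iff.1 hG p hpG
    have he : ∀ᶠ e : ℝ in 𝓝[>] 0, e < d / R' :=
      (eventually_lt_nhds (div_pos hd hR1)).filter_mono nhdsWithin_le_nhds
    filter_upwards [he, self_mem_nhdsWithin] with e he he0
    have he0 : 0 < e := he0
    set ψ : V n → ℝ := fun x => φ (e⁻¹ • (x - p)) with hψ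
    have hψs : ContDiff ℝ ∞ ψ := hφ.comp ((contDiff_id.sub contDiff_const).const_smul _)
    have hψd : ∀ x, fderiv ℝ ψ x = e⁻¹ • fderiv ℝ φ (e⁻¹ • (x - p)) := by
      intro x
      have h1 : HasFDerivAt (fun x : V n => e⁻¹ • (x - p))
          (e⁻¹ • ContinuousLinearMap.id ℝ (V n)) x :=
        ((hasFDerivAt_id x).sub_const p).fun_const_smul e⁻¹
      have h2 : HasFDerivAt ψ _ x :=
        ((hφ.differentiable (by simp) (e⁻¹ • (x - p))).hasFDerivAt).comp x h1
      rw [h2.fderiv]
      ext v
      simp
    have hsb : Function.support ψ ⊆ Metric.closedBall p (e * R') := by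
      intro x hne
      have h3 := hsup _ hne
      have h5 : ‖x - p‖ = e * ‖e⁻¹ • (x - p)‖ := by
        rw [norm_smul, norm_inv, Real.norm_of_nonneg he0.le, ← mul_assoc,
          mul_inv_cancel₀ he0.ne', one_mul]
      rw [Metric.mem_closedBall, dist_eq_norm, h5]
      gcongr
    have hts : tsupport ψ ⊆ Metric.closedBall p (e * R') :=
      closure_minimal hsb Metric.isClosed_closedBall
    have hψc : HasCompactSupport ψ :=
      HasCompactSupport.of_support_subset_isCompact (isCompact_closedBall _ _) hsb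
    have hball : Metric.closedBall p (e * R') ⊆ G := by
      refine (Metric.closedBall_subset_ball ?_).trans hd2
      calc e * R' < d / R' * R' := by gcongr
        _ = d := div_mul_cancel₀ _ hR1.ne'
    have h1 := h ψ hψs hψc (hts.trans hball)
    have h7 : ∫ x, (Om ρ).indicator (fun x => fderiv ℝ φ (e⁻¹ • (x - p)) (X x) +
        e * φ (e⁻¹ • (x - p)) * c x) x = 0 := by
      rw [integral_indicator hOm.measurableSet]
      have : ∀ x, fderiv ℝ φ (e⁻¹ • (x - p)) (X x) + e * φ (e⁻¹ • (x - p)) * c x =
          e * (fderiv ℝ ψ x (X x) + ψ x * c x) := by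
        intro x
        have h8 : fderiv ℝ ψ x (X x) = e⁻¹ * fderiv ℝ φ (e⁻¹ • (x - p)) (X x) := by
          rw [hψd]; rfl
        rw [h8, mul_add, ← mul_assoc, mul_inv_cancel₀ he0.ne', one_mul, ← mul_assoc]
      simp only [this]
      rw [integral_const_mul, h1, mul_zero]
    rw [← integral_add_left_eq_self _ p] at h7
    have h8 := Measure.integral_comp_smul (volume : Measure (V n)) (fun z =>
      (Om ρ).indicator (fun x => fderiv ℝ φ (e⁻¹ • (x - p)) (X x) +
        e * φ (e⁻¹ • (x - p)) * c x) (p + z)) e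
    rw [h7, smul_zero] at h8
    rw [← h8]
    congr 1
    funext y
    have h9 : e⁻¹ • (p + e • y - p) = y := by
      rw [add_sub_cancel_left, smul_smul, inv_mul_cancel₀ he0.ne', one_smul]
    by_cases hpos : 0 < ρ (p + e • y)
    · rw [indicator_of_mem (show p + e • y ∈ Om ρ from hpos), h9]
      exact indicator_of_mem (s := {y : V n | 0 < ρ (p + e • y)}) hpos _
    · rw [indicator_of_notMem (show p + e • y ∉ Om ρ from hpos)]
      exact indicator_of_notMem (s := {y : V n | 0 < ρ (p + e • y)}) hpos _
  have hlim : Tendsto (fun e => ∫ y, F e y) (𝓝[>] 0)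
      (𝓝 (∫ y, {y : V n | 0 < fderiv ℝ ρ p y}.indicator (fun y => fderiv ℝ φ y (X p)) y)) := by
    refine tendsto_integral_filter_of_dominated_convergence
      (fun y => ‖fderiv ℝ φ y‖ * C + ‖φ y‖ * C2) ?_ ?_ ?_ ?_
    · refine Eventually.of_forall fun e => ?_
      have hm : Continuous fun y : V n => p + e • y :=
        continuous_const.add (continuous_id.const_smul e)
      refine (StronglyMeasurable.indicator ?_ ?_).aestronglyMeasurable
      · exact ((hdc.clm_apply (hX.comp hm)).add
          ((continuous_const.mul hφ.continuous).mul (hcc.comp hm))).stronglyMeasurable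
      · exact (isOpen_lt continuous_const (hc.comp hm)).measurableSet
    · filter_upwards [(eventually_lt_nhds (zero_lt_one (α := ℝ))).filter_mono
        nhdsWithin_le_nhds, self_mem_nhdsWithin] with e he he0
      have he0 : 0 < e := he0
      refine Eventually.of_forall fun y => ?_
      by_cases hy : ‖y‖ ≤ R'
      · have hmem : p + e • y ∈ Metric.closedBall p R' := by
          rw [Metric.mem_closedBall, dist_eq_norm, add_sub_cancel_left, norm_smul,
            Real.norm_of_nonneg he0.le]
          calc e * ‖y‖ ≤ 1 * R' := by gcongr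
            _ = R' := one_mul _
        have hb : ‖X (p + e • y)‖ ≤ C := hC _ hmem
        have hb2 : ‖c (p + e • y)‖ ≤ C2 := hC2 _ hmem
        refine (norm_indicator_le_norm_self _ _).trans ?_
        refine (norm_add_le _ _).trans (add_le_add ?_ ?_)
        · refine (ContinuousLinearMap.le_opNorm _ _).trans ?_
          gcongr
        · rw [norm_mul, norm_mul, Real.norm_of_nonneg he0.le]
          calc e * ‖φ y‖ * ‖c (p + e • y)‖ ≤ 1 * ‖φ y‖ * C2 := by gcongr
            _ = ‖φ y‖ * C2 := by rw [one_mul]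
      · have h0 := hsup2 y (not_le.1 hy)
        have h1 := hsup1 y (not_le.1 hy)
        simp only [hF, indicator, h0, h1, zero_apply, norm_zero, zero_mul, mul_zero, add_zero,
          ite_self, le_refl]
    · exact ((hdc.norm.mul continuous_const).integrable_of_hasCompactSupport
        ((hφc.fderiv ℝ).norm.mul_right)).add
        ((hφ.continuous.norm.mul continuous_const).integrable_of_hasCompactSupport
        (hφc.norm.mul_right))
    · have hne : fderiv ℝ ρ p ≠ 0 := hρ.nz p hp
      have hker : volume {y : V n | fderiv ℝ ρ p y = 0} = 0 := by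
        have := Measure.addHaar_submodule (volume : Measure (V n))
          (LinearMap.ker (fderiv ℝ ρ p : V n →ₗ[ℝ] ℝ)) ?_
        · exact this
        · intro htop
          apply hne
          ext v
          have : v ∈ LinearMap.ker (fderiv ℝ ρ p : V n →ₗ[ℝ] ℝ) := by
            rw [htop]; trivial
          exact this
      have hae : ∀ᵐ y : V n, fderiv ℝ ρ p y ≠ 0 := by
        rw [ae_iff]
        simpa using hker
      filter_upwards [hae] with y hy
      have hm : Continuous fun e : ℝ => p + e • y :=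
        continuous_const.add (continuous_id.smul continuous_const)
      have hXt : Tendsto (fun e : ℝ => fderiv ℝ φ y (X (p + e • y)) + e * φ y * c (p + e • y))
          (𝓝[>] 0) (𝓝 (fderiv ℝ φ y (X p))) := by
        have : Continuous fun e : ℝ => fderiv ℝ φ y (X (p + e • y)) +
            e * φ y * c (p + e • y) :=
          ((fderiv ℝ φ y).continuous.comp (hX.comp hm)).add
            ((continuous_id.mul continuous_const).mul (hcc.comp hm))
        have h2 := this.tendsto 0
        simp only [zero_smul, add_zero, zero_mul] at h2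
        exact h2.mono_left nhdsWithin_le_nhds
      have hder : HasDerivAt (fun e : ℝ => ρ (p + e • y)) (fderiv ℝ ρ p y) 0 := by
        have h1 : HasDerivAt (fun e : ℝ => p + e • y) y 0 := by
          have := ((hasDerivAt_id (0 : ℝ)).smul_const y).const_add p
          simpa using this
        have h2 : HasFDerivAt ρ (fderiv ℝ ρ p) (p + (0 : ℝ) • y) := by
          rw [zero_smul, add_zero]
          exact (hρ.sm.differentiable (by simp) p).hasFDerivAt
        exact h2.comp_hasDerivAt 0 h1
      have hsl := hder.tendsto_slope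
      have hsl2 : Tendsto (fun e : ℝ => e⁻¹ * ρ (p + e • y)) (𝓝[>] 0) (𝓝 (fderiv ℝ ρ p y)) := by
        have h3 : Tendsto (slope (fun e : ℝ => ρ (p + e • y)) 0) (𝓝[>] 0)
            (𝓝 (fderiv ℝ ρ p y)) :=
          hsl.mono_left (nhdsWithin_mono _ fun e he => ne_of_gt he)
        refine h3.congr fun e => ?_
        rw [slope_def_field, zero_smul, add_zero, hp, sub_zero, sub_zero]
        ring
      rcases lt_or_gt_of_ne hy with hl | hl
      · have he : ∀ᶠ e : ℝ in 𝓝[>] 0, F e y = 0 := by
          filter_upwards [hsl2.eventually_lt_const hl, self_mem_nhdsWithin] with e h1 h2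
          have h2 : 0 < e := h2
          have : ¬ 0 < ρ (p + e • y) := fun h3 => absurd (mul_pos (inv_pos.2 h2) h3)
            (not_lt.2 h1.le)
          simp only [hF, indicator, mem_ofPred_eq, this, if_false]
        have hn : ¬ 0 < fderiv ℝ ρ p y := not_lt.2 hl.le
        simp only [indicator, mem_ofPred_eq, hn, if_false]
        exact tendsto_const_nhds.congr' (he.mono fun e h => h.symm)
      · have he : ∀ᶠ e : ℝ in 𝓝[>] 0, F e y = fderiv ℝ φ y (X (p + e • y)) +
            e * φ y * c (p + e • y) := by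
          filter_upwards [hsl2.eventually_const_lt hl, self_mem_nhdsWithin] with e h1 h2
          have h2 : 0 < e := h2
          have : 0 < ρ (p + e • y) := by
            by_contra h3
            exact absurd h1 (not_lt.2 (mul_nonpos_of_nonneg_of_nonpos (inv_pos.2 h2).le
              (not_lt.1 h3)))
          simp only [hF, indicator, mem_ofPred_eq, this, if_true]
        have hn : 0 < fderiv ℝ ρ p y := hl
        simp only [indicator, mem_ofPred_eq, hn, if_true]
        exact hXt.congr' (he.mono fun e h => h.symm)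
  have hlim0 : Tendsto (fun e => ∫ y, F e y) (𝓝[>] 0) (𝓝 0) :=
    tendsto_const_nhds.congr' (hz.mono fun e h => h.symm)
  rw [← integral_indicator hLo.measurableSet]
  exact tendsto_nhds_unique hlim hlim0

/-- The normal component vanishes. -/
theorem nrm (ρ : V n → ℝ) (hρ : SDom ρ) (G : Set (V n)) (hG : IsOpen G) (X : V n → V n)
    (hX : Continuous X) (c : V n → ℝ) (hcc : Continuous c) (p : V n) (hp : ρ p = 0) (hpG : p ∈ G)
    (h : ∀ φ : V n → ℝ, ContDiff ℝ ∞ φ → HasCompactSupport φ → tsupport φ ⊆ G →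
      ∫ x in Om ρ, (fderiv ℝ φ x (X x) + φ x * c x) = 0) : fderiv ℝ ρ p (X p) = 0 :=
  H924.half (fderiv ℝ ρ p) (hρ.nz p hp) _ fun φ hφ hφc =>
    blowG ρ hρ G hG X hX c hcc p hp hpG h φ hφ hφc

/-- A smooth function which vanishes on the patch: the derivative is a multiple of `dρ`. -/
theorem der_mul (ρ : V n → ℝ) (hρ : ContDiff ℝ ∞ ρ) (hnz : ∀ x, ρ x = 0 → fderiv ℝ ρ x ≠ 0)
    (G : Set (V n)) (hG : IsOpen G) (f : V n → ℝ) (hf : ContDiff ℝ ∞ f)
    (h0 : ∀ x ∈ G, ρ x = 0 → f x = 0) (p : V n) (hp : ρ p = 0) (hpG : p ∈ G) :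
    ∃ a : ℝ, fderiv ℝ f p = a • fderiv ℝ ρ p := by
  obtain ⟨χ, hχs, -, hχ, -, hχ1⟩ := exists_contDiff_tsupport_subset (n := ⊤) (hG.mem_nhds hpG)
  have hχ' : ContDiff ℝ ∞ χ := hχ
  obtain ⟨g, hg, hge⟩ := B.H641.had hρ hnz (hχ'.mul hf) (fun x hx => by
    by_cases hxG : x ∈ G
    · simp [h0 x hxG hx]
    · have : χ x = 0 := image_eq_zero_of_notMem_tsupport fun hc => hxG (hχs hc)
      simp [this])
  refine ⟨g p, ?_⟩
  have hfd : HasFDerivAt f (fderiv ℝ f p) p := (hf.differentiable (by simp) p).hasFDerivAt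
  have hχd : HasFDerivAt χ (fderiv ℝ χ p) p := (hχ'.differentiable (by simp) p).hasFDerivAt
  have hρd : HasFDerivAt ρ (fderiv ℝ ρ p) p := (hρ.differentiable (by simp) p).hasFDerivAt
  have hgd : HasFDerivAt g (fderiv ℝ g p) p := (hg.differentiable (by simp) p).hasFDerivAt
  have h1 := hχd.mul hfd
  have h2 := hρd.mul hgd
  have h3 : χ * f = ρ * g := funext hge
  have h4 := h1.unique (h3 ▸ h2)
  rw [hχ1, h0 p hpG hp, hp, one_smul, zero_smul, add_zero, zero_smul, zero_add] at h4
  exact h4

end Vale.Agent.P088.H79
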